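import Vale.Agent.P088.H198.K.Defs
import Vale.Agent.P088.H535.USmk
import Vale.Agent.P088.H159.USm

/-!
# P088, theorem JB, row (K_GS): smallness of the gauge transform
-/

open MeasureTheory Set
open scoped ContDiff Matrix

noncomputable section

namespace Vale.Agent.P088.LR.K.H378

open Vale.Agent.P088.LR Vale.Agent.P088.LR.CF Vale.Agent.P088.LR.U Vale.Agent.P088.LR.H158
  Vale.Agent.P088.LR.K

variable {n N : ℕ}

theorem cl_cst {F : Type*} [NormedAddCommGroup F] [NormedSpace ℝ F] {k : ℕ} {c : F} {b : ℝ}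
    (h : ‖c‖ ≤ b) : Cl k b (fun _ : V n => c) := by
  intro l _ x
  rcases Nat.eq_zero_or_pos l with rfl | hl
  · rw [norm_iteratedFDeriv_zero]
    exact h
  · rw [iteratedFDeriv_const_of_ne hl.ne']
    simpa using (norm_nonneg c).trans h

theorem clC_mul {k : ℕ} {a b : ℝ} {P Q : MC n N} (hP : SmC P) (hQ : SmC Q) (h1 : ClC k a P)
    (h2 : ClC k b Q) : ClC k (N * (2 ^ k * (a * b))) (fun x => P x * Q x) := by
  intro α β
  have h3 := H535.cl_sum Finset.univ (fun c : Fin N => (hP α c).mul (hQ c β))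
    (fun c => H535.cl_mul (hP α c) (hQ c β) (h1 α c) (h2 c β))
  rw [Finset.card_univ, Fintype.card_fin] at h3
  simp only [Matrix.mul_apply]
  exact h3

theorem clC_star {k : ℕ} {a : ℝ} {P : MC n N} (hP : SmC P) (h : ClC k a P) :
    ClC k a (fun x => (P x)ᴴ) := by
  intro α β
  have h1 := H535.cl_lin (Complex.conjCLE : ℂ →L[ℝ] ℂ)
    (ContinuousLinearMap.opNorm_le_bound _ zero_le_one fun z => by
      rw [one_mul]
      exact (Complex.norm_conj z).le) (hP β α) (h β α)
  simp only [Matrix.conjTranspose_apply]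
  exact h1

theorem SmC_pdm {U : MC n N} (hU : SmC U) (i : Fin n) : SmC (pdm i U) :=
  fun a b => contDiff_pd (hU a b) i

/-- **Row K_GS** -/
theorem gs : RowGS := by
  intro n N k ε hε
  set D : ℝ := N * (2 ^ k * (N * (2 ^ k * 4))) + N * (2 ^ k * 2) + 1 with hD
  have hD0 : 0 < D := by positivity
  refine ⟨min 1 (ε / D), lt_min one_pos (div_pos hε hD0), ?_⟩
  intro U A hU hA _ hW hAk i
  set δ : ℝ := min 1 (ε / D) with hδ
  have hδ0 : 0 < δ := lt_min one_pos (div_pos hε hD0)
  have hδ1 : δ ≤ 1 := min_le_left _ _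
  have hδD : D * δ ≤ ε := by
    have : δ ≤ ε / D := min_le_right _ _
    rw [le_div_iff₀ hD0] at this
    linarith
  have hU1 : ClC k 2 U := by
    intro α β
    have h1 : Cl k δ (fun x => U x α β - (1 : Matrix (Fin N) (Fin N) ℂ) α β) :=
      H535.cl_le (hW α β) (Nat.le_succ k) le_rfl
    have h2 : Cl k 1 (fun _ : V n => (1 : Matrix (Fin N) (Fin N) ℂ) α β) := by
      refine cl_cst ?_
      by_cases h : α = β
      · subst h
        rw [Matrix.one_apply_eq, norm_one]
      · rw [Matrix.one_apply_ne h, norm_zero]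
        exact zero_le_one
    have h3 := H535.cl_add ((hU α β).sub contDiff_const) contDiff_const h1 h2
    have e : (fun y => U y α β - (1 : Matrix (Fin N) (Fin N) ℂ) α β +
        (1 : Matrix (Fin N) (Fin N) ℂ) α β) = fun y => U y α β := by
      funext y
      ring
    rw [e] at h3
    exact H535.cl_le h3 le_rfl (by linarith)
  have hpU : ClC k δ (pdm i U) := by
    intro α β
    have h4 := H159.cl_pdF ((hU α β).sub
      (contDiff_const (c := (1 : Matrix (Fin N) (Fin N) ℂ) α β))) (hW α β) i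
    rw [H159.pd_subc] at h4
    exact h4
  have hUs : SmC (fun x => (U x)ᴴ) := SmC_star hU
  have hAi : SmC (A i) := fun a b => hA.1 i a b
  have h5 := clC_mul hUs hAi (clC_star hU hU1) (hAk i)
  have h6 := clC_mul (SmC_mul hUs hAi) hU h5 hU1
  have h7 := clC_mul hUs (SmC_pdm hU i) (clC_star hU hU1) hpU
  intro α β
  have h8 := H535.cl_add ((SmC_mul (SmC_mul hUs hAi) hU) α β)
    ((SmC_mul hUs (SmC_pdm hU i)) α β) (h6 α β) (h7 α β)
  refine H535.cl_le h8 le_rfl ?_
  have e9 : (N : ℝ) * (2 ^ k * (N * (2 ^ k * (2 * δ)) * 2)) + N * (2 ^ k * (2 * δ)) =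
      D * δ - δ := by
    rw [hD]
    ring
  rw [e9]
  linarith

end Vale.Agent.P088.LR.K.H378
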