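import Vale.Agent.P088.H833.D.Defs
import Vale.Agent.P088.H129.CBa
import Vale.Agent.P088.H394.CEn

/-!
# P088, Theorem D, row (D_EN): `φ₂ - φ` is controlled by `q - q₀` and `t - 1`
-/

open MeasureTheory Set
open scoped ContDiff Matrix

noncomputable section

namespace Vale.Agent.P088.LR.CD.H378

open Vale.Agent.P088.LR Vale.Agent.P088.LR.CF Vale.Agent.P088.LR.CC Vale.Agent.P088.LR.CD

variable {n : ℕ}

theorem pd_mulR {F G : V n → ℝ} (hF : ContDiff ℝ ∞ F) (hG : ContDiff ℝ ∞ G) (i : Fin n) :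
    pd i (fun y => F y * G y) = fun x => pd i F x * G x + F x * pd i G x := by
  funext x
  exact H394.pd_mul' (hF.differentiable (by simp)) (hG.differentiable (by simp)) i x

theorem lap_cx {u : V n → ℝ} (hu : ContDiff ℝ ∞ u) (x : V n) :
    dv (fun _ => 1) (cx u) x = ((∑ i, pd i (pd i u) x : ℝ) : ℂ) := by
  rw [CC.H129.dv_cx CC.H129.smM_one hu x]
  unfold CC.H129.dR
  congr 1
  refine Finset.sum_congr rfl fun i _ => ?_
  have e : (fun y => ∑ j, (1 : Matrix (Fin n) (Fin n) ℝ) i j * pd j u y) = pd i u := by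
    funext y
    rw [Finset.sum_eq_single i]
    · rw [Matrix.one_apply_eq, one_mul]
    · intro j _ hj
      rw [Matrix.one_apply_ne (Ne.symm hj), zero_mul]
    · intro h
      exact absurd (Finset.mem_univ _) h
  rw [e]

theorem ss_mul {φ g : V n → ℝ} (hφ : ContDiff ℝ ∞ φ) (hg : ContDiff ℝ ∞ g) (x : V n) :
    H394.SS (fun y => φ y ^ 2) g x =
      φ x * ((∑ i, pd i (pd i (fun y => φ y * g y)) x) - g x * ∑ i, pd i (pd i φ) x) := by
  have e2 : (fun y => φ y ^ 2) = fun y => φ y * φ y := by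
    funext y
    ring
  unfold H394.SS
  rw [Finset.mul_sum, ← Finset.sum_sub_distrib, Finset.mul_sum]
  refine Finset.sum_congr rfl fun i _ => ?_
  have h1 : pd i (fun y => φ y ^ 2) x = 2 * (φ x * pd i φ x) := by
    rw [e2, pd_mulR hφ hφ i]
    ring
  have h2 : pd i (pd i (fun y => φ y * g y)) x =
      pd i (pd i φ) x * g x + 2 * (pd i φ x * pd i g x) + φ x * pd i (pd i g) x := by
    rw [pd_mulR hφ hg i]
    have hp : ContDiff ℝ ∞ (pd i φ) := H394.cd_pd hφ i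
    have hq : ContDiff ℝ ∞ (pd i g) := H394.cd_pd hg i
    rw [H158.pd_add (H158.dfa (hp.mul hg) x) (H158.dfa (hφ.mul hq) x) i,
      pd_mulR hp hg i, pd_mulR hφ hq i]
    ring
  rw [h1, h2]
  ring

theorem bd0 {f : V n → ℂ} {k : ℕ} {a : ℝ} (h : Cl k a f) (x : V n) : ‖f x‖ ≤ a := by
  have := h 0 (Nat.zero_le _) x
  rwa [norm_iteratedFDeriv_zero] at this

/-- The equation of `f = φ₂ / φ - 1`. -/
theorem gf_quot {Ω : Set (V n)} {φ q₀ φ₂ : V n → ℝ} {t : MF n} {q : V n → ℝ}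
    (B : B2 Ω φ q₀ φ₂ t q) (x : V n) :
    gf φ (fun y => φ₂ y / φ y - 1) x = (cx φ x)⁻¹ * ((cx q x - cx q₀ x) * cx φ₂ x -
      ∑ i, pd i (fun y => ∑ j, ent t i j y * pd j (cx φ₂) y) x) := by
  have hφ := B.ba.p
  have h0 : ∀ y, φ y ≠ 0 := fun y => (hφ.2 y).ne'
  have hg : ContDiff ℝ ∞ (fun y => φ₂ y / φ y) := B.p₂.1.div hφ.1 h0
  have hf : ContDiff ℝ ∞ (fun y => φ₂ y / φ y - 1) := hg.sub contDiff_const
  have hpd : ∀ i, pd i (fun y => φ₂ y / φ y - 1) = pd i (fun y => φ₂ y / φ y) := by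
    intro i
    funext z
    rw [H158.pd_sub (H158.dfa hg z) (H158.dfa contDiff_const z) i, H158.pd_const, sub_zero]
  have hSS : H394.SS (fun y => φ y ^ 2) (fun y => φ₂ y / φ y - 1) x =
      H394.SS (fun y => φ y ^ 2) (fun y => φ₂ y / φ y) x := by
    unfold H394.SS
    simp only [hpd]
  have hmul : (fun y => φ y * (φ₂ y / φ y)) = φ₂ := by
    funext y
    have := h0 y
    field_simp
  rw [H394.gf_eq hφ hf, hSS, ss_mul hφ.1 hg x, hmul]
  have h2 := CC.H129.dv_diff B.sm (CC.H129.contDiff_cx B.p₂.1) x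
  rw [B.eq x, lap_cx B.p₂.1] at h2
  have h3 := B.ba.eq x
  rw [lap_cx hφ.1] at h3
  rw [← h2]
  have h4 : ((φ x : ℝ) : ℂ) ≠ 0 := by exact_mod_cast h0 x
  simp only [cx]
  push_cast at h3 ⊢
  rw [h3]
  field_simp
  ring

/-- **Row D_EN** -/
theorem end_ : RowEND := by
  intro n hn φ q₀ hB B
  obtain ⟨C₀, hC₀, hC⟩ := H394.en n hn φ q₀ hB
  have hf : ContDiff ℝ ∞ (cx φ) := CC.H129.contDiff_cx hB.p.1
  have hφn : ∀ x, cx φ x ≠ 0 := fun x => by
    unfold cx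
    exact_mod_cast (hB.p.2 x).ne'
  have hinv : ContDiff ℝ ∞ (fun y => (cx φ y)⁻¹) := hf.inv hφn
  have hone : ∀ x ∉ core n, cx φ x = 1 := fun x hx => by
    unfold cx
    rw [hB.one x fun h => hx (CC.H129.bal_core h), Complex.ofReal_one]
  have hcc : IsCompact (core n) := by
    rw [H884.core_eq]
    exact isCompact_closedBall _ _
  have hf1 : ContDiff ℝ ∞ (fun y => cx φ y - 1) := hf.sub contDiff_const
  have hi1 : ContDiff ℝ ∞ (fun y => (cx φ y)⁻¹ - 1) := hinv.sub contDiff_const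
  obtain ⟨B1, hB1, h1⟩ := H884.exists_cl (k := 0) hf1
    (HasCompactSupport.intro hcc fun x hx => by rw [hone x hx, sub_self])
  obtain ⟨B2, hB2, h2⟩ := H884.exists_cl (k := 0) hi1
    (HasCompactSupport.intro hcc fun x hx => by rw [hone x hx, inv_one, sub_self])
  have hup : ∀ x, φ x ≤ 1 + B1 := by
    intro x
    have e1 := bd0 h1 x
    have e2 : cx φ x - 1 = ((φ x - 1 : ℝ) : ℂ) := by
      simp [cx]
    rw [e2, Complex.norm_real, Real.norm_eq_abs] at e1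
    linarith [(abs_le.1 e1).2]
  have hlo : ∀ x, ‖(cx φ x)⁻¹‖ ≤ 1 + B2 := by
    intro x
    have e1 := bd0 h2 x
    have e2 : (cx φ x)⁻¹ = ((cx φ x)⁻¹ - 1) + 1 := by ring
    rw [e2]
    refine (norm_add_le _ _).trans ?_
    rw [norm_one]
    linarith
  have hn0 : (0 : ℝ) ≤ n := Nat.cast_nonneg n
  refine ⟨1 + (1 + B1) * (C₀ * ((1 + B2) * (|B| + n * (n * (2 ^ 1 * |B|))))), ?_, ?_⟩
  · have : 0 ≤ (1 + B1) * (C₀ * ((1 + B2) * (|B| + n * (n * (2 ^ 1 * |B|))))) := by positivity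
    linarith
  intro Ω φ₂ t q hb hcl d hd hq ht x
  have hB0 : 0 ≤ B := H535.cl_nonneg hcl
  rw [abs_of_nonneg hB0]
  have hc2 : ContDiff ℝ ∞ (cx φ₂) := CC.H129.contDiff_cx hb.p₂.1
  have h3 : ∀ j, Cl 1 B (pd j (cx φ₂)) := fun j => H159.cl_pdF hc2 hcl j
  have hent : ∀ i j, ContDiff ℝ ∞ (ent t i j) := fun i j =>
    Complex.ofRealCLM.contDiff.comp ((hb.sm i j).sub contDiff_const)
  have h4 : ∀ i j, Cl 1 (2 ^ 1 * (d * B)) (fun y => ent t i j y * pd j (cx φ₂) y) :=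
    fun i j => H535.cl_mul (hent i j) (H158.contDiff_pd hc2 j) (ht i j) (h3 j)
  have h5 : ∀ i, Cl 1 (n * (2 ^ 1 * (d * B))) (fun y => ∑ j, ent t i j y * pd j (cx φ₂) y) := by
    intro i
    have := H535.cl_sum Finset.univ (fun j => (hent i j).mul (H158.contDiff_pd hc2 j)) (h4 i)
    rwa [Finset.card_univ, Fintype.card_fin] at this
  have h6 : ∀ i, Cl 0 (n * (2 ^ 1 * (d * B)))
      (pd i fun y => ∑ j, ent t i j y * pd j (cx φ₂) y) := fun i =>
    H159.cl_pdF (CC.H129.contDiff_fE hb.sm hc2 i) (h5 i) i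
  have h7 : Cl 0 (n * (n * (2 ^ 1 * (d * B))))
      (fun x => ∑ i, pd i (fun y => ∑ j, ent t i j y * pd j (cx φ₂) y) x) := by
    have := H535.cl_sum Finset.univ
      (fun i => H158.contDiff_pd (CC.H129.contDiff_fE hb.sm hc2 i) i) h6
    rwa [Finset.card_univ, Fintype.card_fin] at this
  set b : ℝ := (1 + B2) * (d * B + n * (n * (2 ^ 1 * (d * B)))) with hbdef
  have hb0 : 0 ≤ b := by positivity
  have hφp := hB.p
  have hfs : ContDiff ℝ ∞ (fun y => φ₂ y / φ y - 1) :=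
    (hb.p₂.1.div hφp.1 fun y => (hφp.2 y).ne').sub contDiff_const
  have hoff : ∀ y ∉ core n, φ₂ y / φ y - 1 = 0 := by
    intro y hy
    rw [hb.off₂ y fun h => hy (CC.H129.bal_core (hb.sub h)), div_self (hφp.2 y).ne', sub_self]
  have key := hC _ hfs hoff b hb0 (fun y => by
    rw [gf_quot hb y, norm_mul]
    refine mul_le_mul (hlo y) ?_ (norm_nonneg _) (by positivity)
    refine (norm_sub_le _ _).trans (add_le_add ?_ (bd0 h7 y))
    rw [norm_mul]
    exact mul_le_mul (hq y) (bd0 hcl y) (norm_nonneg _) hd) x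
  have e3 : φ₂ x - φ x = φ x * (φ₂ x / φ x - 1) := by
    have := (hφp.2 x).ne'
    field_simp
  rw [e3, abs_mul, abs_of_pos (hφp.2 x)]
  have e4 : φ x * |φ₂ x / φ x - 1| ≤ (1 + B1) * (C₀ * b) :=
    mul_le_mul (hup x) key (abs_nonneg _) (by positivity)
  refine e4.trans ?_
  have e5 : (1 + B1) * (C₀ * b) =
      (1 + B1) * (C₀ * ((1 + B2) * (B + n * (n * (2 ^ 1 * B))))) * d := by
    rw [hbdef]
    ring
  rw [e5, add_mul, one_mul]
  linarith

end Vale.Agent.P088.LR.CD.H378
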